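import Mathlib
import Vale.Agent.Lib.P061.Complete

namespace Vale.Agent.Results.P061.LowerBoundFour

open Vale.Agent.Lib.P061

/-- For every `k ≥ 1` the complete graph on `k + 1` vertices is `k`-edge-connected, has spanning
trees, and none of its spanning trees is `α`-thin for any `α < 4 k / (k + 1) ^ 2`. Consequently any
constant `C` for which the strong thin tree statement holds satisfies `C ≥ 4`. -/
theorem result :
    (∀ k : ℕ, 1 ≤ k →
      EdgeConnected (endsK (k + 1)) k ∧ (∃ T, IsSpanningTree (endsK (k + 1)) T) ∧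
        ∀ (T : Finset {z : Sym2 (Fin (k + 1)) // ¬ z.IsDiag}) (α : ℝ),
          IsSpanningTree (endsK (k + 1)) T → IsThin (endsK (k + 1)) α T →
            4 * (k : ℝ) / ((k : ℝ) + 1) ^ 2 ≤ α) ∧
    ∀ C : ℝ, StrongThinTree C → 4 ≤ C :=
  ⟨fun k hk => ⟨edgeConnectedK k, exists_treeK k, fun T α hT hthin => thinK k hk T α hT hthin⟩,
    four_le_of_strongThinTree⟩

end Vale.Agent.Results.P061.LowerBoundFour
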